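import Crest.Agent.R193.L.Sep

/-!
# R193/L/Core: the Loewner core estimate

`m₀, N` from `MainEst`, `Λ₀` from `frontier_large`, `Λ = max (Λ₀ 2^(m₀+1), 2 (2^m₀ + 1), 2L+1)`.  WLOG `α < β`.
If a level-`k` net cell meeting `E` has `osc ≥ (β-α)/10` it lies in some `ball z (Λρ)`: done (`C ≥ 100`).  Otherwise `E⁺` = union of these cells is open,
preconnected, `v ≤ α' = α + (β-α)/10` on it; `P` from `sep_family`; levels `s i = α' + i γ`, `i < m`, `m γ = β - α'`, `γ ≤` every positive oscillation of a level-`k` net cell.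
`v' = stepFun (P ∘ s) m γ`; `osc v' c ≤ 2 osc v c` on level-`k` cells (`osc_stepFun_le`, `cut_of_frontier`: at most `osc/γ + 1` of the `s i` cut `c`, none if `osc = 0`).
`K i = frontier (P (s i))` meets `J`, has diameter `≥ R/Λ₀` (`frontier_large` at a point of `K i`), so meets some `ball z ρ`.  `ρ ≤ sc n < 2ρ` (`exists_sc`, `ρ ≤ R ≤ 1`), `n ≤ k`,
`y z ∈ net n` with `ball z ρ ⊆ cell n (y z)` (`exists_cell`).  `RR v' (ball y (2^m₀ sc n))` by `stepFun_frontier` + `frontier_large`.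
`m γ ≤ ∑_z osc v' (cell n (y z))` (`le_osc_stepFun`), `MainEst`, `En_le_of_osc_le`, Cauchy–Schwarz.
-/

set_option autoImplicit false
open Set Metric Filter Topology MeasureTheory

namespace Crest.Agent.R193

variable {Z : Type} [MetricSpace Z] [CompactSpace Z]

theorem loew_core (Γ : Cov Z) (hs : Nonempty (Z ≃ₜ OnePoint ℂ)) (hd : ∀ a b : Z, dist a b ≤ 1)
    (hL : LLC2 Z) (hM : MainEst Γ) : ∃ Λ C : ℝ, 1 ≤ Λ ∧ 0 ≤ C ∧
    ∀ (v : Z → ℝ) (E F J : Set Z) (α β R ρ : ℝ) (k : ℕ) (T : Finset Z), Bdd v → α ≤ β →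
      IsPreconnected E → IsPreconnected F → IsPreconnected J →
      E ⊆ closure {z | v z ≤ α} → F ⊆ closure {z | β ≤ v z} →
      (J ∩ E).Nonempty → (J ∩ F).Nonempty → 0 < ρ → Λ * ρ ≤ R → R ≤ diam E → R ≤ diam F →
      sc k ≤ ρ → (∀ y ∈ E, ∃ z ∈ T, dist y z < ρ) →
      (∀ K : Set Z, IsPreconnected K → (K ∩ J).Nonempty → R / Λ ≤ diam K →
        ∃ z ∈ T, (K ∩ ball z ρ).Nonempty) →
      (β - α) ^ 2 ≤ C * T.card * ∑ z ∈ T, Γ.En k v (ball z (Λ * ρ)) := by
  classical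
  obtain ⟨m₀, N, hN0, hM⟩ := hM
  obtain ⟨Λ₀, hΛ₀, hfl⟩ := frontier_large hL
  have hL0 := Γ.L_pos
  have h2m : (0 : ℝ) < 2 ^ m₀ := by positivity
  have hΛa : 0 < Λ₀ * (2 * 2 ^ m₀) := by positivity
  have hΛb : Λ₀ ≤ Λ₀ * (2 * 2 ^ m₀) := le_mul_of_one_le_right (by linarith)
    (by linarith [one_le_pow₀ (n := m₀) (one_le_two (α := ℝ))])
  set Λ := Λ₀ * (2 * 2 ^ m₀) + 2 * (2 ^ m₀ + 1) + (2 * Γ.L + 1) with hΛ
  refine ⟨Λ, 100 + 5 * N, by linarith, by positivity,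
    fun v E F J α β R ρ k T hv hαβ hE hF hJ hEv hFv hJE hJF hρ hΛR hRE hRF hk hET hKT => ?_⟩
  have hS0 : 0 ≤ ∑ z ∈ T, Γ.En k v (ball z (Λ * ρ)) :=
    Finset.sum_nonneg fun z _ => Γ.En_nonneg _ _ _
  rcases hαβ.eq_or_lt with rfl | hlt
  · rw [sub_self, zero_pow two_ne_zero]; positivity
  obtain ⟨e₀, he₀J, he₀⟩ := hJE
  obtain ⟨f₀, hf₀J, hf₀⟩ := hJF
  have hT1 : (1 : ℝ) ≤ T.card := by
    obtain ⟨z, hz, -⟩ := hET e₀ he₀
    exact_mod_cast Finset.card_pos.2 ⟨z, hz⟩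
  have hLk := mul_le_mul_of_nonneg_left hk hL0.le
  by_cases hc : ∃ x ∈ Γ.net k, (Γ.cell k x ∩ E).Nonempty ∧ (β - α) / 10 ≤ osc v (Γ.cell k x)
  · obtain ⟨x, hx, ⟨y, hy1, hy2⟩, h1⟩ := hc
    obtain ⟨z, hz, hyz⟩ := hET y hy2
    have h2 := Γ.sum_le_En (n := k) (v := v) (W := ball z (Λ * ρ)) {x} fun x' hx' => by
      rw [Finset.mem_singleton.1 hx']
      refine ⟨hx, fun p hp => ?_⟩
      have a1 : dist p x < Γ.L * sc k := Γ.sup _ _ hp
      have a2 : dist y x < Γ.L * sc k := Γ.sup _ _ hy1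
      have a3 : (2 * Γ.L + 1) * ρ ≤ Λ * ρ := mul_le_mul_of_nonneg_right (by linarith) hρ.le
      exact mem_ball.2 (by linarith [dist_triangle p y z, dist_triangle_right p y x])
    rw [Finset.sum_singleton] at h2
    have h3 := Finset.single_le_sum (f := fun z => Γ.En k v (ball z (Λ * ρ)))
      (fun z _ => Γ.En_nonneg _ _ _) hz
    have h4 := pow_le_pow_left₀ (by linarith) h1 2
    have h5 : (100 : ℝ) ≤ (100 + 5 * N) * T.card := by nlinarith
    have h6 := mul_le_mul_of_nonneg_right h5 hS0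
    nlinarith
  push Not at hc
  set E' : Set Z := ⋃ x ∈ (Γ.net k).filter (fun x => (Γ.cell k x ∩ E).Nonempty), Γ.cell k x with hE'
  have hEE : E ⊆ E' := fun y hy => by
    obtain ⟨x, hx, -, h1, -⟩ := Γ.exists_cell k y
    have := h1 (mem_ball_self (sc_pos k))
    exact mem_iUnion₂.2 ⟨x, Finset.mem_filter.2 ⟨hx, y, this, hy⟩, this⟩
  have hE'c : IsPreconnected E' := isPreconnected_of_forall e₀ fun y hy => by
    obtain ⟨x, hx, hy'⟩ := mem_iUnion₂.1 hy
    obtain ⟨p, hp1, hp2⟩ := (Finset.mem_filter.1 hx).2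
    exact ⟨E ∪ Γ.cell k x, union_subset hEE (subset_biUnion_of_mem (u := Γ.cell k) hx),
      Or.inl he₀, Or.inr hy', hE.union p hp2 hp1 (Γ.conn k x)⟩
  set α' := α + (β - α) / 10 with hα'
  have hE'v : ∀ y ∈ E', v y ≤ α' := fun y hy => by
    obtain ⟨x, hx, hy'⟩ := mem_iUnion₂.1 hy
    obtain ⟨hx1, p, hp1, hp2⟩ := Finset.mem_filter.1 hx
    obtain ⟨q, hq1, hq2⟩ := mem_closure_iff.1 (hEv hp2) _ (Γ.isOpen k x) hp1
    have h1 := (abs_sub_le_osc (hv.isBounded _) hy' hq1).trans_lt (hc x hx1 ⟨p, hp1, hp2⟩)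
    have h2 : v q ≤ α := hq2
    linarith [(abs_lt.1 h1).2]
  obtain ⟨P, hP, hPm⟩ := sep_family hs (isOpen_biUnion fun x _ => Γ.isOpen k x) hE'c
    ⟨e₀, hEE he₀⟩ hF ⟨f₀, hf₀⟩ hE'v hFv
  obtain ⟨m, hm1, hm⟩ : ∃ m : ℕ, 1 ≤ m ∧ ∀ x ∈ Γ.net k, 0 < osc v (Γ.cell k x) →
      (β - α') / m ≤ osc v (Γ.cell k x) := by
    refine ((eventually_ge_atTop 1).and ((Finset.eventually_all _).2 fun x _ => ?_)).exists
    by_cases h0 : 0 < osc v (Γ.cell k x)
    · exact ((tendsto_const_div_atTop_nhds_zero_nat (β - α')).eventually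
        (ge_mem_nhds h0)).mono fun m hm _ => hm
    · exact Eventually.of_forall fun m h => absurd h h0
  have hm0 : (0 : ℝ) < m := by exact_mod_cast hm1
  set γ := (β - α') / m with hγ
  have hγ0 : 0 < γ := div_pos (by linarith) hm0
  have hγm : γ * m = β - α' := div_mul_cancel₀ _ hm0.ne'
  set P' : ℕ → Set Z := fun i => P (α' + i * γ) with hP'
  have hs1 : ∀ i : ℕ, α' ≤ α' + i * γ := fun i => le_add_of_nonneg_right (by positivity)
  have hs2 : ∀ i : ℕ, i < m → α' + i * γ < β := fun i hi => by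
    have : (i : ℝ) < m := by exact_mod_cast hi
    nlinarith
  have hQ := fun i hi => hP _ (hs1 i) (hs2 i hi)
  have hmono : ∀ i j, i ≤ j → j < m → P' i ⊆ P' j := fun i j hij hj =>
    hPm _ _ (hs1 i) (by
      have : (i : ℝ) ≤ j := by exact_mod_cast hij
      nlinarith) (hs2 j hj)
  set v' := stepFun P' m γ with hv'
  have hfine : ∀ x ∈ Γ.net k, osc v' (Γ.cell k x) ≤ 2 * osc v (Γ.cell k x) := fun x hx => by
    set S := (Finset.range m).filter (fun i : ℕ => Cut v (Γ.cell k x) (α' + i * γ)) with hS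
    refine (osc_stepFun_le hγ0 hmono (Γ.conn k x) S fun i hi ⟨p, hp1, hp2⟩ =>
      Finset.mem_filter.2 ⟨Finset.mem_range.2 hi,
        cut_of_frontier (Γ.isOpen k x) ⟨p, hp1, (hQ i hi).2.2.2.2 hp2⟩⟩).trans ?_
    rcases S.eq_empty_or_nonempty with h0 | h0
    · rw [h0, Finset.card_empty, Nat.cast_zero, mul_zero]; linarith [osc_nonneg v (Γ.cell k x)]
    · obtain ⟨a, ha, ha'⟩ := (Finset.mem_filter.1 (S.min'_mem h0)).2.1
      obtain ⟨b, hb, hb'⟩ := (Finset.mem_filter.1 (S.max'_mem h0)).2.2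
      have h1 := (le_abs_self _).trans (abs_sub_le_osc (hv.isBounded _) hb ha)
      have h2 : S.card ≤ (Finset.Icc (S.min' h0) (S.max' h0)).card := Finset.card_le_card
        fun i hi => Finset.mem_Icc.2 ⟨S.min'_le i hi, S.le_max' i hi⟩
      have h3 := S.min'_le_max' h0
      have h4 : S.card + S.min' h0 ≤ S.max' h0 + 1 := by rw [Nat.card_Icc] at h2; omega
      have h5 : (S.card : ℝ) + S.min' h0 ≤ S.max' h0 + 1 := by exact_mod_cast h4
      have h6 : (S.min' h0 : ℝ) ≤ S.max' h0 := by exact_mod_cast h3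
      have h7 := hm x hx (by nlinarith)
      nlinarith
  have hR0 : 0 < R := lt_of_lt_of_le (by positivity) hΛR
  have hlarge : ∀ i, i < m → ∀ x, ¬ frontier (P' i) ⊆ ball x (R / Λ₀) := fun i hi x =>
    hfl _ E F R x hR0 (hEE.trans (hQ i hi).2.1) (hQ i hi).2.2.1 hRE hRF
  have hz : ∀ i, i < m → ∃ z ∈ T, (frontier (P' i) ∩ ball z ρ).Nonempty := fun i hi => by
    have h1 : (frontier (P' i) ∩ J).Nonempty := by
      by_contra hcon
      have := hJ.subset_of_closure_inter_subset (hQ i hi).1 ⟨e₀, he₀J, (hQ i hi).2.1 (hEE he₀)⟩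
        fun p hp => by
          rcases (closure_eq_self_union_frontier _).subset hp.1 with h | h
          · exact h
          · exact absurd ⟨p, h, hp.2⟩ hcon
      exact disjoint_left.1 (hQ i hi).2.2.1 hf₀ (this hf₀J)
    refine hKT _ (hQ i hi).2.2.2.1 h1 ?_
    obtain ⟨x, hx, -⟩ := h1
    obtain ⟨p, hp, hp'⟩ := not_subset.1 (hlarge i hi x)
    refine le_trans (div_le_div_of_nonneg_left hR0.le (by linarith) (by linarith))
      ((not_lt.1 hp').trans (dist_le_diam_of_mem isBounded_of_compactSpace hp hx))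
  have : Nonempty Z := ⟨e₀⟩
  choose! z hz1 hz2 using hz
  have hρ1 : ρ ≤ 1 := by
    have h1 : diam E ≤ 1 := diam_le_of_forall_dist_le zero_le_one fun a _ b _ => hd a b
    nlinarith
  obtain ⟨n, hn1, hn2⟩ := exists_sc hρ hρ1
  have hnk : n ≤ k := by
    by_contra hcon
    have := sc_anti (m := k + 1) (n := n) (by omega)
    rw [sc_succ] at this
    linarith
  choose y hy1 hy2 hy3 hy4 using Γ.exists_cell n
  have h2n : 2 ^ m₀ * sc n ≤ 2 ^ m₀ * (2 * ρ) := mul_le_mul_of_nonneg_left hn2.le h2m.le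
  have hest : ∀ a, osc v' (Γ.cell n (y a)) ^ 2 ≤ 4 * N * Γ.En k v (ball a (Λ * ρ)) := fun a => by
    have h1 := hM n k (y a) v' hnk (hy1 a) (stepFun_bdd _ _ _) fun t x _ hxf hsub => by
      rcases stepFun_frontier hγ0 hmono t with h | ⟨i, hi, h⟩
      · rw [hv', h] at hxf; exact hxf
      · rw [hv', h] at hxf hsub
        rw [(hQ i hi).2.2.2.1.connectedComponentIn hxf] at hsub
        refine hlarge i hi (y a) (hsub.trans (ball_subset_ball ?_))
        rw [le_div_iff₀ (by linarith)]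
        have a1 := mul_le_mul_of_nonneg_right h2n (by linarith : 0 ≤ Λ₀)
        have a2 : Λ₀ * (2 * 2 ^ m₀) * ρ ≤ Λ * ρ :=
          mul_le_mul_of_nonneg_right (by linarith) hρ.le
        linarith
    have h2 := Γ.En_le_of_osc_le (n := k) (v := v') (v' := v) (W := ball (y a) (2 ^ m₀ * sc n))
      zero_le_two fun x hx _ => hfine x hx
    have h3 : Γ.En k v (ball (y a) (2 ^ m₀ * sc n)) ≤ Γ.En k v (ball a (Λ * ρ)) :=
      Γ.En_mono _ _ fun p hp => by
        have a1 := hy2 a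
        have a2 : 2 * (2 ^ m₀ + 1) * ρ ≤ Λ * ρ := mul_le_mul_of_nonneg_right (by linarith) hρ.le
        rw [mem_ball] at hp ⊢
        linarith [dist_triangle_right p a (y a)]
    have h4 := mul_le_mul_of_nonneg_left (h2.trans (mul_le_mul_of_nonneg_left h3 (by positivity))) hN0
    linarith
  have hsum : γ * m ≤ ∑ a ∈ T, osc v' (Γ.cell n (y a)) := by
    have h1 := Finset.card_eq_sum_card_fiberwise (s := Finset.range m) (t := T) (f := z)
      fun i hi => hz1 i (Finset.mem_range.1 hi)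
    rw [Finset.card_range] at h1
    have h2 : (m : ℝ) = ∑ a ∈ T, (((Finset.range m).filter (fun i => z i = a)).card : ℝ) := by
      exact_mod_cast h1
    rw [h2, Finset.mul_sum]
    refine Finset.sum_le_sum fun a _ => le_osc_stepFun hγ0 hmono (fun i hi => (hQ i hi).1)
      (Γ.isOpen _ _) _ fun i hi => ?_
    obtain ⟨hi1, rfl⟩ := Finset.mem_filter.1 hi
    obtain ⟨p, hp1, hp2⟩ := hz2 i (Finset.mem_range.1 hi1)
    exact ⟨Finset.mem_range.1 hi1, p, hy3 _ (ball_subset_ball hn1 hp2), hp1⟩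
  have h1 := (pow_le_pow_left₀ (by positivity) hsum 2).trans (sq_sum_le_card_mul_sum_sq.trans
    (mul_le_mul_of_nonneg_left (Finset.sum_le_sum fun a _ => hest a) (Nat.cast_nonneg _)))
  rw [← Finset.mul_sum, hγm] at h1
  have h2 : 0 ≤ T.card * ∑ z ∈ T, Γ.En k v (ball z (Λ * ρ)) := by positivity
  have h3 := mul_nonneg hN0 h2
  have h4 : β - α' = 9 / 10 * (β - α) := by rw [hα']; ring
  rw [h4] at h1
  nlinarith

end Crest.Agent.R193
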