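import Crest.Agent.R193.L.Core

/-!
# R193/L/Main: the two Loewner estimates

* `loewG`: `x₁ ∈ J ∩ E`, `E' = trunc E x₁ (R/3)` (`exists_far_of_diam`), core with `R/3`, `ρ = R/(6Λ)`, `T` a `ρ`-net (`exists_net`) of `thickening (R/2) J ⊆ ball x ((t+1) R)`;
  `ball z (Λρ) ⊆ thickening R J`.
* `loewL`: for a scale `t` with `τ R ≤ t ≤ R/(3L+1)`: `E_t = trunc_ann E z t (2t)`, `J` from `Cov.llc1 z (3t)`, core with `R := t`, `ρ = t/(6Λ²)`, `T` a `ρ`-net of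
  `{t/(3Λ) ≤ dist · z < 3Lt}` (a preconnected `K` meeting `J` of diameter `≥ t/Λ` meets this set: `exists_far_of_diam`, `inter_sphere`).  The balls lie in
  `Ann t = {t/(6Λ) < dist · z < (3L+1) t}`; the `Ann (σ^i t₀)`, `σ = 1/(6Λ(3L+1))`, `t₀ = R/(3L+1)`, `i < M`, are disjoint subsets of `ball z R` (`sum_En_le` with `N = 1`).
-/

set_option autoImplicit false
open Set Metric Filter Topology MeasureTheory

namespace Crest.Agent.R193

variable {Z : Type} [MetricSpace Z] [CompactSpace Z]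

theorem loewG (Γ : Cov Z) (hs : Nonempty (Z ≃ₜ OnePoint ℂ)) (hd : ∀ a b : Z, dist a b ≤ 1)
    (hL : LLC2 Z) (hM : MainEst Γ) : LoewG Γ := by
  obtain ⟨Λ, C, hΛ, hC, h⟩ := loew_core Γ hs hd hL hM
  intro t ht
  obtain ⟨N, hN⟩ := Γ.exists_net ((t + 1) * (6 * Λ))
  refine ⟨C * N * N, 1 / (6 * Λ), by positivity, by positivity,
    fun v E F J α β R x k hv hab hE hF hJ hEv hFv ⟨a, haJ, haE⟩ hJF hR hRE hRF hJx hk => ?_⟩
  have h3 : Λ * (R / (6 * Λ)) = R / 6 := by field_simp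
  obtain ⟨T, hT, hTA, hA⟩ := hN x (R / (6 * Λ)) (thickening (R / 2) J) (by positivity) fun y hy => by
    obtain ⟨w, hw, hw'⟩ := mem_thickening_iff.1 hy
    rw [mem_ball, mul_assoc, mul_div_cancel₀ _ (by positivity)]
    linarith [dist_triangle y w x, mem_ball.1 (hJx hw)]
  obtain ⟨E', a1, a2, a3, a4, b, hb, hb'⟩ := trunc hE (subset_closure haE) (r := R / 3) (by positivity)
    (exists_far_of_diam isBounded_of_compactSpace hR hRE a)
  refine (h v E' F J α β (R / 3) (R / (6 * Λ)) k T hv hab a2 hF hJ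
    (fun y hy => closure_minimal hEv isClosed_closure (a3 hy).1) hFv ⟨a, haJ, a4⟩ hJF (by positivity) (by linarith)
    (hb' ▸ dist_le_diam_of_mem a1.isBounded hb a4) (by linarith) (by rwa [one_div_mul_eq_div] at hk)
    (fun y hy => hA y (mem_thickening_iff.2 ⟨a, haJ, by linarith [mem_closedBall.1 (a3 hy).2]⟩))
    fun K _ ⟨y, hy, hy'⟩ _ => ?_).trans ?_
  · obtain ⟨w, hw, hw'⟩ := hA y (self_subset_thickening (by positivity) J hy')
    exact ⟨w, hw, y, hy, hw'⟩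
  · rw [mul_assoc (C * N)]
    have h6 := Γ.En_nonneg k v (thickening R J)
    have h7 : (T.card : ℝ) ≤ N := by exact_mod_cast hT
    refine mul_le_mul (by gcongr) ((Finset.sum_le_card_nsmul _ _ _ fun w hw => Γ.En_mono k v fun y hy => ?_).trans
      (by rw [nsmul_eq_mul]; gcongr)) (Finset.sum_nonneg fun w _ => Γ.En_nonneg _ _ _) (by positivity)
    rw [mem_ball, h3] at hy
    obtain ⟨u, hu, hu'⟩ := mem_thickening_iff.1 (hTA w hw)
    exact mem_thickening_iff.2 ⟨u, hu, by linarith [dist_triangle y w u]⟩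

theorem loewL_scale (Γ : Cov Z) (hs : Nonempty (Z ≃ₜ OnePoint ℂ)) (hd : ∀ a b : Z, dist a b ≤ 1)
    (hL : LLC2 Z) (hM : MainEst Γ) : ∃ Λ C : ℝ, 1 ≤ Λ ∧ 0 ≤ C ∧
    ∀ (v : Z → ℝ) (E F : Set Z) (α β t : ℝ) (z : Z) (k : ℕ), Bdd v → α ≤ β →
      IsPreconnected E → IsPreconnected F → E ⊆ closure {z | v z ≤ α} → F ⊆ closure {z | β ≤ v z} → 0 < t →
      (∃ a ∈ E, dist a z ≤ t) → (∃ b ∈ E, 2 * t ≤ dist b z) → (∃ a ∈ F, dist a z ≤ t) →
      (∃ b ∈ F, 2 * t ≤ dist b z) → sc k ≤ t / (6 * Λ ^ 2) →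
      (β - α) ^ 2 ≤ C * Γ.En k v {y | t / (6 * Λ) < dist y z ∧ dist y z < (3 * Γ.L + 1) * t} := by
  obtain ⟨Λ, C, hΛ, hC, h⟩ := loew_core Γ hs hd hL hM
  obtain ⟨N, hN⟩ := Γ.exists_net (3 * Γ.L * (6 * Λ ^ 2))
  haveI := sph_connected hs
  refine ⟨Λ, C * N * N, hΛ, by positivity, fun v E F α β t z k hv hab hE hF hEv hFv ht e1 e2 f1 f2 hk => ?_⟩
  have hL2 := Γ.two_le
  have h1 : t / (3 * Λ) ≤ t / 3 := by gcongr; linarith
  have h2 : t / (3 * Λ) = 2 * (t / (6 * Λ)) := by field_simp; norm_num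
  have h3 : Λ * (t / (6 * Λ ^ 2)) = t / (6 * Λ) := by field_simp
  have h4 : 0 < t / (6 * Λ) := by positivity
  have h5 : 2 * t ≤ Γ.L * t := by gcongr
  obtain ⟨J, -, hJ, hJ1, hJ2⟩ := Γ.llc1 hd z (r := 3 * t) (by positivity)
  obtain ⟨T, hT, hTA, hA⟩ := hN z (t / (6 * Λ ^ 2)) {y | t / (3 * Λ) ≤ dist y z ∧ dist y z < 3 * Γ.L * t}
    (by positivity) fun y hy => by
      rw [mem_ball, mul_assoc, mul_div_cancel₀ _ (by positivity)]
      exact hy.2
  have key : ∀ E : Set Z, IsPreconnected E → (∃ a ∈ E, dist a z ≤ t) → (∃ b ∈ E, 2 * t ≤ dist b z) →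
      ∃ E' : Set Z, IsPreconnected E' ∧ E' ⊆ closure E ∧ (J ∩ E').Nonempty ∧ t ≤ diam E' ∧
        ∀ y ∈ E', t ≤ dist y z ∧ dist y z ≤ 2 * t := fun E hE e1 e2 => by
    obtain ⟨E', h6, h7, h8, h9, ⟨a, ha, ha'⟩, b, hb, hb'⟩ := trunc_ann hE (by linarith) e1 e2
    refine ⟨E', h7, h8, ⟨a, hJ1 (mem_ball.2 (by linarith)), ha⟩, ?_, h9⟩
    linarith [dist_le_diam_of_mem h6.isBounded hb ha, dist_triangle b a z]
  obtain ⟨E', a1, a2, a3, a4, a5⟩ := key E hE e1 e2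
  obtain ⟨F', b1, b2, b3, b4, -⟩ := key F hF f1 f2
  refine (h v E' F' J α β t (t / (6 * Λ ^ 2)) k T hv hab a1 b1 hJ (a2.trans (closure_minimal hEv isClosed_closure))
    (b2.trans (closure_minimal hFv isClosed_closure)) a3 b3 (by positivity) (by linarith) a4 b4 hk
    (fun y hy => hA y ⟨by linarith [(a5 y hy).1], by linarith [(a5 y hy).2]⟩) fun K hK ⟨a, ha, ha'⟩ hKd => ?_).trans ?_
  · suffices ∃ y ∈ K, t / (3 * Λ) ≤ dist y z ∧ dist y z < 3 * Γ.L * t by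
      obtain ⟨y, hy, hy'⟩ := this
      obtain ⟨w, hw, hw'⟩ := hA y hy'
      exact ⟨w, hw, y, hy, hw'⟩
    rcases le_total (t / (3 * Λ)) (dist a z) with h6 | h6
    · exact ⟨a, ha, h6, by linarith [mem_ball.1 (hJ2 ha')]⟩
    · obtain ⟨y, hy, hy'⟩ := inter_sphere hK ⟨a, ha, h6⟩ (by
        simpa only [div_div, mul_comm Λ] using
          exists_far_of_diam isBounded_of_compactSpace (by positivity) hKd z)
      exact ⟨y, hy, hy'.ge, by linarith⟩
  · rw [mul_assoc (C * N)]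
    have h6 := Γ.En_nonneg k v {y | t / (6 * Λ) < dist y z ∧ dist y z < (3 * Γ.L + 1) * t}
    have h7 : (T.card : ℝ) ≤ N := by exact_mod_cast hT
    refine mul_le_mul (by gcongr) ((Finset.sum_le_card_nsmul _ _ _ fun w hw => Γ.En_mono k v fun y hy => ?_).trans
      (by rw [nsmul_eq_mul]; gcongr)) (Finset.sum_nonneg fun w _ => Γ.En_nonneg _ _ _) (by positivity)
    rw [mem_ball, h3] at hy
    obtain ⟨h8, h9⟩ := hTA w hw
    exact ⟨by linarith [dist_triangle_left w z y], by linarith [dist_triangle y w z]⟩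

theorem loewL (Γ : Cov Z) (hs : Nonempty (Z ≃ₜ OnePoint ℂ)) (hd : ∀ a b : Z, dist a b ≤ 1)
    (hL : LLC2 Z) (hM : MainEst Γ) : LoewL Γ := by
  obtain ⟨Λ, C, hΛ, hC, h⟩ := loewL_scale Γ hs hd hL hM
  intro ε hε
  obtain ⟨M, hM⟩ := exists_nat_gt (C / ε)
  have hM0 : (0 : ℝ) < M := lt_of_le_of_lt (by positivity) hM
  have hL2 := Γ.two_le
  obtain ⟨D, hD⟩ : ∃ D, D = 3 * Γ.L + 1 := ⟨_, rfl⟩
  have hD7 : 7 ≤ D := by linarith
  obtain ⟨σ, hσ⟩ : ∃ σ, σ = 1 / (6 * Λ * D) := ⟨_, rfl⟩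
  have hσ0 : 0 < σ := by rw [hσ]; positivity
  have hσ1 : σ ≤ 1 := by rw [hσ, div_le_one (by positivity)]; nlinarith
  refine ⟨σ ^ M / D / (6 * Λ ^ 2), by positivity,
    fun v E F α β R z k hv hab hE hF hEv hFv hR hRE hRF ⟨a, ha, ha'⟩ ⟨b, hb, hb'⟩ hk => ?_⟩
  have hm : ∀ {i j : ℕ}, i ≤ j → σ ^ j * R ≤ σ ^ i * R := fun h =>
    mul_le_mul_of_nonneg_right (pow_le_pow_of_le_one hσ0.le hσ1 h) hR.le
  have h0 : ∀ i : ℕ, σ ^ i * R ≤ R := fun i => by simpa using hm (Nat.zero_le i)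
  have h1 : ∀ i ∈ Finset.range M, (β - α) ^ 2 ≤ C * Γ.En k v {y | σ ^ (i + 1) * R < dist y z ∧ dist y z < σ ^ i * R} :=
    fun i hi => by
      have t0 : 0 < σ ^ i * R / D := by positivity
      have t1 : σ ^ M / D / (6 * Λ ^ 2) * R ≤ σ ^ i * R / D / (6 * Λ ^ 2) := by
        rw [div_mul_eq_mul_div, div_mul_eq_mul_div]
        gcongr ?_ / _ / _
        exact hm (Finset.mem_range.1 hi).le
      have t2 : σ ^ i * R / D / (6 * Λ ^ 2) ≤ σ ^ i * R / D := div_le_self t0.le (by nlinarith)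
      have t3 : 2 * (σ ^ i * R / D) ≤ R / 3 := by
        have : σ ^ i * R / D ≤ R / 7 := by gcongr; exact h0 i
        linarith
      obtain ⟨a', h2, h3⟩ := exists_far_of_diam isBounded_of_compactSpace hR hRE z
      obtain ⟨b', h4, h5⟩ := exists_far_of_diam isBounded_of_compactSpace hR hRF z
      have := h v E F α β _ z k hv hab hE hF hEv hFv t0 ⟨a, ha, by linarith [mem_ball.1 ha']⟩ ⟨a', h2, t3.trans h3⟩
        ⟨b, hb, by linarith [mem_ball.1 hb']⟩ ⟨b', h4, t3.trans h5⟩ (hk.trans t1)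
      rwa [← hD, mul_div_cancel₀ _ (by positivity), show σ ^ i * R / D / (6 * Λ) = σ ^ (i + 1) * R by
        rw [pow_succ, mul_right_comm, hσ]; field_simp] at this
  have h2 := Γ.sum_En_le (Finset.range M) k v (W := fun i => {y | σ ^ (i + 1) * R < dist y z ∧ dist y z < σ ^ i * R})
    (W' := ball z R) (N := 1) (fun i _ y hy => hy.2.trans_le (h0 i)) fun y T _ hT =>
      Finset.card_le_one.2 fun i hi j hj => by
        by_contra hne
        rcases Nat.lt_or_gt_of_ne hne with h | h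
        · linarith [hm (i := _ + 1) h, (hT i hi).1, (hT j hj).2]
        · linarith [hm (i := _ + 1) h, (hT i hi).2, (hT j hj).1]
  have h3 := Finset.card_nsmul_le_sum _ _ _ h1
  rw [← Finset.mul_sum, Finset.card_range, nsmul_eq_mul] at h3
  rw [div_lt_iff₀ hε] at hM
  refine le_of_mul_le_mul_left (h3.trans ((mul_le_mul_of_nonneg_left h2 hC).trans ?_)) hM0
  rw [Nat.cast_one, one_mul, ← mul_assoc]
  exact mul_le_mul_of_nonneg_right hM.le (Γ.En_nonneg _ _ _)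

end Crest.Agent.R193
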