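import Crest.Agent.R193.C.En
import Crest.Agent.R193.B.Unico

/-!
# R193/L/Sep: nested separating continua, step functions

* `sep_family`: `e₀ ∈ E`, `f₀ ∈ F`; `O s = connectedComponentIn (closure {s < v})ᶜ e₀ ⊇ E`, `Q s = connectedComponentIn (O s)ᶜ f₀ ⊇ F` (closed),
  `P s = connectedComponentIn (Q s)ᶜ e₀ ⊇ O s`.  `frontier (P s) ⊆ frontier (Q s) ⊆ frontier (O s) ⊆ frontier (closure {s < v}) ⊆ frontier {s < v}`
  (local connectedness: an interior point of the ambient set is interior to its component); `frontier_component`.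
* `frontier_large`: `exists_far_of_diam` for `E` and `F`, the preconnected `B` of `LLC2` meets `P` and `Pᶜ`.
* `stepFun`: `{i < m | z ∉ P i}` is an initial segment.
-/

set_option autoImplicit false
open Set Metric Filter Topology MeasureTheory

namespace Crest.Agent.R193

variable {Z : Type} [MetricSpace Z]

private theorem sepa_frontier [LocallyConnectedSpace Z] (S : Set Z) (x : Z) :
    frontier (connectedComponentIn S x) ⊆ frontier S := fun y hy => by
  refine ⟨closure_mono (connectedComponentIn_subset _ _) hy.1, fun h => hy.2 ?_⟩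
  have ho : IsOpen (connectedComponentIn (interior S) y) := isOpen_interior.connectedComponentIn
  obtain ⟨z, h1, h2⟩ := mem_closure_iff.1 hy.1 _ ho (mem_connectedComponentIn h)
  refine interior_maximal ?_ ho (mem_connectedComponentIn h)
  rw [connectedComponentIn_eq h2]
  exact isPreconnected_connectedComponentIn.subset_connectedComponentIn h1
    ((connectedComponentIn_subset _ _).trans interior_subset)

private theorem sepa_closed {S : Set Z} (hS : IsClosed S) {x : Z} (hx : x ∈ S) :
    IsClosed (connectedComponentIn S x) :=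
  closure_subset_iff_isClosed.1 (isPreconnected_connectedComponentIn.closure.subset_connectedComponentIn
    (subset_closure (mem_connectedComponentIn hx)) (closure_minimal (connectedComponentIn_subset _ _) hS))

theorem sep_family (hs : Nonempty (Z ≃ₜ OnePoint ℂ)) {v : Z → ℝ} {E F : Set Z} {α β : ℝ}
    (hEo : IsOpen E) (hE : IsPreconnected E) (hEn : E.Nonempty) (hF : IsPreconnected F)
    (hFn : F.Nonempty) (hEv : ∀ z ∈ E, v z ≤ α) (hFv : F ⊆ closure {z | β ≤ v z}) :
    ∃ P : ℝ → Set Z, (∀ s, α ≤ s → s < β → IsOpen (P s) ∧ E ⊆ P s ∧ Disjoint F (P s) ∧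
      IsPreconnected (frontier (P s)) ∧ frontier (P s) ⊆ frontier {z | s < v z}) ∧
      ∀ s s', α ≤ s → s ≤ s' → s' < β → P s ⊆ P s' := by
  have := sph_locallyConnected hs
  obtain ⟨e, he⟩ := hEn
  obtain ⟨f, hf⟩ := hFn
  refine ⟨fun s => connectedComponentIn
    (connectedComponentIn (connectedComponentIn (closure {z | s < v z})ᶜ e)ᶜ f)ᶜ e, fun s h1 h2 => ?_,
    fun s s' _ h _ => connectedComponentIn_mono _ (compl_subset_compl.2 (connectedComponentIn_mono _
      (compl_subset_compl.2 (connectedComponentIn_mono _ (compl_subset_compl.2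
        (closure_mono fun z hz => h.trans_lt hz))))))⟩
  set O := connectedComponentIn (closure {z | s < v z})ᶜ e
  set Q := connectedComponentIn Oᶜ f
  have hEO : E ⊆ O := hE.subset_connectedComponentIn he (Disjoint.closure_right
    (disjoint_left.2 fun z hz h => ((hEv z hz).trans h1).not_gt h) hEo).subset_compl_right
  have hFO : F ⊆ Oᶜ := fun z hz h =>
    connectedComponentIn_subset _ _ h (closure_mono (fun y (hy : β ≤ v y) => h2.trans_le hy) (hFv hz))
  have hFQ : F ⊆ Q := hF.subset_connectedComponentIn hf hFO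
  have hO : IsOpen O := isClosed_closure.isOpen_compl.connectedComponentIn
  have hQ : IsClosed Q := sepa_closed hO.isClosed_compl (hFO hf)
  refine ⟨hQ.isOpen_compl.connectedComponentIn, hE.subset_connectedComponentIn he fun z hz h =>
    connectedComponentIn_subset _ _ h (hEO hz), disjoint_left.2 fun z hz h =>
    connectedComponentIn_subset _ _ h (hFQ hz), frontier_component hs hQ isPreconnected_connectedComponentIn e, ?_⟩
  refine (sepa_frontier _ _).trans ((frontier_compl _).trans_subset ((sepa_frontier _ _).trans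
    ((frontier_compl _).trans_subset ((sepa_frontier _ _).trans ((frontier_compl _).trans_subset
      frontier_closure_subset)))))

theorem frontier_large [CompactSpace Z] (hL : LLC2 Z) : ∃ Λ : ℝ, 1 ≤ Λ ∧
    ∀ (P E F : Set Z) (R : ℝ) (x : Z), 0 < R → E ⊆ P → Disjoint F P → R ≤ diam E → R ≤ diam F →
      ¬ frontier P ⊆ ball x (R / Λ) := by
  obtain ⟨Λ, h1, hL⟩ := hL
  refine ⟨3 * Λ, by linarith, fun P E F R x hR hE hF h2 h3 h => ?_⟩
  obtain ⟨B, hB, h4, h5⟩ := hL x (R / (3 * Λ)) (by positivity)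
  rw [show Λ * (R / (3 * Λ)) = R / 3 by field_simp] at h4
  obtain ⟨e, he, he'⟩ := exists_far_of_diam isBounded_of_compactSpace hR h2 x
  obtain ⟨f, hf, hf'⟩ := exists_far_of_diam isBounded_of_compactSpace hR h3 x
  have h6 : B ⊆ interior P ∪ interior Pᶜ := by
    rw [← compl_frontier_eq_union_interior]
    exact fun y hy h7 => h5 hy (h h7)
  have heB : e ∈ B := h4 fun h7 => he'.not_gt h7
  have hfB : f ∈ B := h4 fun h7 => hf'.not_gt h7
  obtain ⟨y, -, h7, h8⟩ := hB _ _ isOpen_interior isOpen_interior h6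
    ⟨e, heB, (h6 heB).resolve_right fun h7 => interior_subset h7 (hE he)⟩
    ⟨f, hfB, (h6 hfB).resolve_left fun h7 => disjoint_left.1 hF hf (interior_subset h7)⟩
  exact interior_subset h8 (interior_subset h7)

open Classical in
/-- step function of a nested family -/
noncomputable def stepFun (P : ℕ → Set Z) (m : ℕ) (γ : ℝ) (z : Z) : ℝ :=
  γ * ((Finset.range m).filter (fun i => z ∉ P i)).card

open Classical in
private noncomputable def sepbN (P : ℕ → Set Z) (m : ℕ) (z : Z) : ℕ :=
  ((Finset.range m).filter (fun i => z ∉ P i)).card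

omit [MetricSpace Z] in
private theorem sepb_le (P : ℕ → Set Z) (m : ℕ) (z : Z) : sepbN P m z ≤ m := by
  classical
  exact (Finset.card_filter_le _ _).trans (Finset.card_range m).le

omit [MetricSpace Z] in
private theorem sepb_eq (P : ℕ → Set Z) (m : ℕ) (γ : ℝ) (z : Z) :
    stepFun P m γ z = γ * sepbN P m z := rfl

omit [MetricSpace Z] in
private theorem sepb_key {P : ℕ → Set Z} {m : ℕ} (hP : ∀ i j, i ≤ j → j < m → P i ⊆ P j) {i : ℕ}
    (hi : i < m) (z : Z) : z ∉ P i ↔ i < sepbN P m z := by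
  classical
  unfold sepbN
  constructor
  · intro h
    rw [Nat.lt_iff_add_one_le, ← Finset.card_range (i + 1)]
    refine Finset.card_le_card fun j hj => ?_
    have hj' : j ≤ i := Nat.lt_succ_iff.1 (Finset.mem_range.1 hj)
    exact Finset.mem_filter.2 ⟨Finset.mem_range.2 (hj'.trans_lt hi), fun h' => h (hP j i hj' hi h')⟩
  · intro h hz
    refine absurd h (not_lt.2 ?_)
    rw [← Finset.card_range i]
    refine Finset.card_le_card fun j hj => ?_
    obtain ⟨h1, h2⟩ := Finset.mem_filter.1 hj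
    exact Finset.mem_range.2 (not_le.1 fun h3 => h2 (hP i j h3 (Finset.mem_range.1 h1) hz))

private theorem sepb_frontier {c P : Set Z} (hc : IsPreconnected c) {a b : Z} (ha : a ∈ c) (hb : b ∈ c)
    (ha' : a ∉ P) (hb' : b ∈ P) : (c ∩ frontier P).Nonempty := by
  by_contra h
  have h1 : ∀ z ∈ c, z ∈ closure P → z ∈ interior P := fun z hz hz' => by
    by_contra h2
    exact h ⟨z, hz, hz', h2⟩
  obtain ⟨z, -, h2, h3⟩ := hc (interior P) (closure P)ᶜ isOpen_interior isClosed_closure.isOpen_compl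
    (fun z hz => by
      by_cases h2 : z ∈ closure P
      · exact Or.inl (h1 z hz h2)
      · exact Or.inr h2)
    ⟨b, hb, h1 b hb (subset_closure hb')⟩ ⟨a, ha, fun h2 => ha' (interior_subset (h1 a ha h2))⟩
  exact h3 (subset_closure (interior_subset h2))

theorem stepFun_bdd (P : ℕ → Set Z) (m : ℕ) (γ : ℝ) : Bdd (stepFun P m γ) := by
  refine ⟨|γ| * m, fun z => ?_⟩
  rw [sepb_eq, abs_mul, Nat.abs_cast]
  exact mul_le_mul_of_nonneg_left (Nat.cast_le.2 (sepb_le P m z)) (abs_nonneg _)

theorem stepFun_frontier {P : ℕ → Set Z} {m : ℕ} {γ : ℝ} (hγ : 0 < γ)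
    (hP : ∀ i j, i ≤ j → j < m → P i ⊆ P j) (t : ℝ) :
    frontier {z | t < stepFun P m γ z} = ∅ ∨
      ∃ i, i < m ∧ frontier {z | t < stepFun P m γ z} = frontier (P i) := by
  rcases lt_or_ge t 0 with ht | ht
  · left
    have : {z | t < stepFun P m γ z} = univ := eq_univ_of_forall fun z => by
      rw [mem_ofPred_eq, sepb_eq]
      exact ht.trans_le (by positivity)
    rw [this, frontier_univ]
  have h : ∀ z, t < stepFun P m γ z ↔ ⌊t / γ⌋₊ < sepbN P m z := fun z => by
    rw [sepb_eq, Nat.floor_lt (div_nonneg ht hγ.le), div_lt_iff₀' hγ]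
  rcases lt_or_ge ⌊t / γ⌋₊ m with hi | hi
  · refine Or.inr ⟨_, hi, ?_⟩
    rw [← frontier_compl (P _)]
    congr 1
    ext z
    rw [mem_ofPred_eq, h, mem_compl_iff, sepb_key hP hi]
  · left
    have : {z | t < stepFun P m γ z} = ∅ := eq_empty_of_forall_notMem fun z hz =>
      absurd ((h z).1 hz) (not_lt.2 ((sepb_le P m z).trans hi))
    rw [this, frontier_empty]

theorem le_osc_stepFun {P : ℕ → Set Z} {m : ℕ} {γ : ℝ} (hγ : 0 < γ)
    (hP : ∀ i j, i ≤ j → j < m → P i ⊆ P j) (ho : ∀ i, i < m → IsOpen (P i)) {c : Set Z}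
    (hc : IsOpen c) (S : Finset ℕ) (hS : ∀ i ∈ S, i < m ∧ (c ∩ frontier (P i)).Nonempty) :
    γ * S.card ≤ osc (stepFun P m γ) c := by
  rcases S.eq_empty_or_nonempty with rfl | hn
  · simpa using osc_nonneg _ _
  obtain ⟨h0, a', ha', ha''⟩ := hS _ (S.min'_mem hn)
  obtain ⟨h1, b, hb, hb'⟩ := hS _ (S.max'_mem hn)
  obtain ⟨a, ha, ha2⟩ := mem_closure_iff.1 (frontier_subset_closure ha'') c hc ha'
  have h2 : sepbN P m a ≤ S.min' hn := not_lt.1 fun h => (sepb_key hP h0 a).2 h ha2
  have h3 : S.max' hn < sepbN P m b :=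
    (sepb_key hP h1 b).1 (by rw [(ho _ h1).frontier_eq] at hb'; exact hb'.2)
  have h4 : S.card ≤ (Finset.Icc (S.min' hn) (S.max' hn)).card :=
    Finset.card_le_card fun i hi => Finset.mem_Icc.2 ⟨S.min'_le i hi, S.le_max' i hi⟩
  have h5 := S.min'_le _ (S.max'_mem hn)
  rw [Nat.card_Icc] at h4
  have h6 : ((S.card + sepbN P m a : ℕ) : ℝ) ≤ sepbN P m b := Nat.cast_le.2 (by omega)
  push_cast at h6
  refine le_trans ?_ ((le_abs_self _).trans (abs_sub_le_osc ((stepFun_bdd P m γ).isBounded c) hb ha))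
  rw [sepb_eq, sepb_eq, ← mul_sub]
  exact mul_le_mul_of_nonneg_left (by linarith) hγ.le

theorem osc_stepFun_le {P : ℕ → Set Z} {m : ℕ} {γ : ℝ} (hγ : 0 < γ)
    (hP : ∀ i j, i ≤ j → j < m → P i ⊆ P j) {c : Set Z} (hc : IsPreconnected c) (S : Finset ℕ)
    (hS : ∀ i, i < m → (c ∩ frontier (P i)).Nonempty → i ∈ S) :
    osc (stepFun P m γ) c ≤ γ * S.card := by
  refine osc_le (by positivity) fun a ha b hb => ?_
  have h1 : (Finset.Ico (sepbN P m b) (sepbN P m a)).card ≤ S.card :=
    Finset.card_le_card fun i hi => by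
      obtain ⟨h1, h2⟩ := Finset.mem_Ico.1 hi
      have h3 : i < m := h2.trans_le (sepb_le P m a)
      refine hS i h3 (sepb_frontier hc ha hb ((sepb_key hP h3 a).2 h2) ?_)
      by_contra h4
      exact absurd ((sepb_key hP h3 b).1 h4) (not_lt.2 h1)
  rw [Nat.card_Ico] at h1
  have h6 : (sepbN P m a : ℝ) ≤ ((S.card + sepbN P m b : ℕ) : ℝ) := Nat.cast_le.2 (by omega)
  push_cast at h6
  rw [sepb_eq, sepb_eq, ← mul_sub]
  exact mul_le_mul_of_nonneg_left (by linarith) hγ.le

end Crest.Agent.R193
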